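import Crest.Agent.R165.Rep

/-! # R165 block Glue: global spin flip (even potential) -/

set_option autoImplicit false
noncomputable section
open Classical Filter Topology Crest.ProbabilityR.IsingModel

namespace Crest.Agent.R165

theorem spinSign_not (b : Bool) : spinSign (!b) = -spinSign b := by
  cases b <;> simp [spinSign]

theorem spinSign_mul_self (b : Bool) : spinSign b * spinSign b = 1 := by
  cases b <;> simp [spinSign]

theorem prod_spinSign_not {ι : Type} (A : Finset ι) (s : ι → Bool) :
    ∏ x ∈ A, spinSign (!s x) = (-1) ^ A.card * ∏ x ∈ A, spinSign (s x) := by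
  simp only [spinSign_not]
  rw [Finset.prod_neg]

theorem V_prod_not {V : Finset Site → ℝ} (hV : ∀ A, V A ≠ 0 → Even A.card) (A : Finset Site) (c : ℝ)
    (s : Site → Bool) :
    V A / c * ∏ x ∈ A, spinSign (!s x) = V A / c * ∏ x ∈ A, spinSign (s x) := by
  by_cases h : V A = 0
  · simp [h]
  · rw [prod_spinSign_not, (hV A h).neg_one_pow, one_mul]

/-! ## torus -/

theorem energy_not {V : Finset Site → ℝ} (hV : ∀ A, V A ≠ 0 → Even A.card) (L : ℕ) [NeZero L] (J lam : ℝ)
    (R : ℕ) (σ : TorusConfig L) : energy L J lam R V (fun u => !σ u) = energy L J lam R V σ := by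
  unfold energy
  congr 2
  · refine Finset.sum_congr rfl fun u _ => ?_
    simp only [spinSign_not, neg_mul_neg]
  · refine Finset.sum_congr rfl fun u _ => Finset.sum_congr rfl fun A _ => ?_
    exact V_prod_not hV A _ fun x => σ (u + toTorus L x)

/-- the flip as an equivalence -/
def flipE (ι : Type) : (ι → Bool) ≃ (ι → Bool) where
  toFun σ := fun u => !σ u
  invFun σ := fun u => !σ u
  left_inv σ := by funext u; simp
  right_inv σ := by funext u; simp

theorem torusExpect_not {V : Finset Site → ℝ} (hV : ∀ A, V A ≠ 0 → Even A.card) (L : ℕ) [NeZero L]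
    (J lam : ℝ) (R : ℕ) (β : ℝ) (f : TorusConfig L → ℝ) :
    torusExpect L J lam R V β (fun σ => f fun u => !σ u) = torusExpect L J lam R V β f := by
  unfold torusExpect
  congr 1
  refine Fintype.sum_equiv (flipE _) _ _ fun σ => ?_
  show _ = f (fun u => !σ u) * Real.exp (-β * energy L J lam R V fun u => !σ u)
  rw [energy_not hV]

theorem torusExpect_neg (L : ℕ) [NeZero L] (J lam : ℝ) (R : ℕ) (V : Finset Site → ℝ) (β : ℝ)
    (f : TorusConfig L → ℝ) :
    torusExpect L J lam R V β (fun σ => -f σ) = -torusExpect L J lam R V β f := by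
  unfold torusExpect
  simp only [neg_mul, Finset.sum_neg_distrib, neg_div]

theorem torusMixedCorr_odd {V : Finset Site → ℝ} (hV : ∀ A, V A ≠ 0 → Even A.card) (L : ℕ) [NeZero L]
    (J lam : ℝ) (R : ℕ) (β : ℝ) {n m : ℕ} (hn : ¬ Even n) (us : Fin n → ZMod L × ZMod L)
    (vs : Fin m → ZMod L × ZMod L) (js : Fin m → Fin 2) :
    torusMixedCorr L J lam R V β us vs js = 0 := by
  have h : torusMixedCorr L J lam R V β us vs js = -torusMixedCorr L J lam R V β us vs js := by
    unfold torusMixedCorr
    rw [← torusExpect_neg, ← torusExpect_not hV]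
    congr 1
    funext σ
    rw [prod_spinSign_not Finset.univ fun i => σ (us i)]
    simp only [spinSign_not, neg_mul_neg, Finset.card_univ, Fintype.card_fin]
    rw [(Nat.not_even_iff_odd.1 hn).neg_one_pow]
    ring
  linarith

theorem latticeMixedCorr_odd {V : Finset Site → ℝ} (hV : ∀ A, V A ≠ 0 → Even A.card) (L : ℕ)
    (J lam : ℝ) (R : ℕ) (β : ℝ) {n m : ℕ} (hn : ¬ Even n) (us : Fin n → Site)
    (vs : Fin m → Site) (js : Fin m → Fin 2) :
    latticeMixedCorr L J lam R V β us vs js = 0 :=
  torusMixedCorr_odd hV _ J lam R β hn _ _ _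

theorem planeMixedCorr_odd {V : Finset Site → ℝ} (hV : ∀ A, V A ≠ 0 → Even A.card)
    (J lam : ℝ) (R : ℕ) (β : ℝ) {n m : ℕ} (hn : ¬ Even n) (us : Fin n → Site)
    (vs : Fin m → Site) (js : Fin m → Fin 2) :
    planeMixedCorr J lam R V β us vs js = 0 := by
  unfold planeMixedCorr
  simp only [latticeMixedCorr_odd hV _ J lam R β hn]
  exact tendsto_const_nhds.limUnder_eq

/-! ## domains: minus versus plus -/

theorem domainEnergy_minus {V : Finset Site → ℝ} (hV : ∀ A, V A ≠ 0 → Even A.card) (T : Finset Site)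
    (J lam : ℝ) (R : ℕ) (s : Site → Bool) :
    domainEnergy T .minus J lam R V (fun z => !s z) = domainEnergy T .plus J lam R V s := by
  unfold domainEnergy
  congr 2
  · simp only [spinSign_not, neg_mul_neg, reduceCtorEq, false_and, if_false, ne_eq, not_false_eq_true, true_and]
  · refine Finset.sum_congr rfl fun u _ => Finset.sum_congr rfl fun A _ => ?_
    simp only [reduceCtorEq, if_false]
    exact V_prod_not hV A _ fun x => s (u + x)

theorem extendConfig_minus (T : Finset Site) (σ : T → Bool) :
    extendConfig T .minus (fun u => !σ u) = fun z => !extendConfig T .plus σ z := by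
  funext z
  unfold extendConfig
  split_ifs <;> simp [BoundaryCondition.exterior]

theorem domainExpect_minus {V : Finset Site → ℝ} (hV : ∀ A, V A ≠ 0 → Even A.card) (D : Set ℂ) (a : ℝ)
    (J lam : ℝ) (R : ℕ) (β : ℝ) (f : (Site → Bool) → ℝ) :
    domainExpect D a .minus J lam R V β f = domainExpect D a .plus J lam R V β fun s => f fun z => !s z := by
  unfold domainExpect
  split_ifs with h
  · congr 1
    · refine (Fintype.sum_equiv (flipE _) _ _ fun σ => ?_).symm
      show _ = f (extendConfig _ .minus fun u => !σ u) *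
        Real.exp (-β * domainEnergy _ .minus J lam R V (extendConfig _ .minus fun u => !σ u))
      rw [extendConfig_minus, domainEnergy_minus hV]
    · refine (Fintype.sum_equiv (flipE _) _ _ fun σ => ?_).symm
      show _ = Real.exp (-β * domainEnergy _ .minus J lam R V (extendConfig _ .minus fun u => !σ u))
      rw [extendConfig_minus, domainEnergy_minus hV]
  · rfl

theorem domainExpect_const_mul (D : Set ℂ) (a : ℝ) (b : BoundaryCondition) (J lam : ℝ) (R : ℕ)
    (V : Finset Site → ℝ) (β c : ℝ) (f : (Site → Bool) → ℝ) :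
    domainExpect D a b J lam R V β (fun s => c * f s) = c * domainExpect D a b J lam R V β f := by
  unfold domainExpect
  split_ifs with h
  · simp only [mul_assoc, ← Finset.mul_sum, mul_div_assoc]
  · simp

theorem domainMixedCorr_minus {V : Finset Site → ℝ} (hV : ∀ A, V A ≠ 0 → Even A.card) (D : Set ℂ) (a : ℝ)
    (J lam : ℝ) (R : ℕ) (β : ℝ) {n m : ℕ} (x : Fin n → ℂ) (y : Fin m → ℂ) (j : Fin m → Fin 2) :
    domainMixedCorr D a .minus J lam R V β x y j = (-1) ^ n * domainMixedCorr D a .plus J lam R V β x y j := by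
  unfold domainMixedCorr
  simp only [domainExpect_minus hV]
  rw [← domainExpect_const_mul]
  congr 1
  funext s
  rw [prod_spinSign_not Finset.univ fun i => s (meshIndex a (x i))]
  simp only [spinSign_not, neg_mul_neg, Finset.card_univ, Fintype.card_fin]
  ring

/-! ## domains: free boundary condition, odd number of spins -/

theorem domainEnergy_free_congr {V : Finset Site → ℝ} (hV : ∀ A, V A ≠ 0 → Even A.card) (T : Finset Site)
    (J lam : ℝ) (R : ℕ) (s s' : Site → Bool) (h : ∀ z ∈ T, s' z = !s z) :
    domainEnergy T .free J lam R V s' = domainEnergy T .free J lam R V s := by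
  unfold domainEnergy
  congr 2
  · simp only [true_and, ne_eq, not_true_eq_false, false_and, if_false]
    congr 1
    refine Finset.sum_congr rfl fun z hz => Finset.sum_congr rfl fun j _ => ?_
    split_ifs with h1
    · rw [h z hz, h _ h1, spinSign_not, spinSign_not, neg_mul_neg]
    · rfl
  · refine Finset.sum_congr rfl fun u _ => Finset.sum_congr rfl fun A _ => ?_
    simp only [if_true]
    split_ifs with h1
    · rw [← V_prod_not hV A _ fun x => s (u + x)]
      congr 1
      exact Finset.prod_congr rfl fun x hx => by rw [h _ (h1 x hx)]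
    · rfl

theorem domainExpect_free_odd {V : Finset Site → ℝ} (hV : ∀ A, V A ≠ 0 → Even A.card) (D : Set ℂ) (a : ℝ)
    (J lam : ℝ) (R : ℕ) (β : ℝ) (f : (Site → Bool) → ℝ)
    (hf : ∀ s s' : Site → Bool, (∀ z ∈ domainSites D a, s' z = !s z) → f s' = -f s) :
    domainExpect D a .free J lam R V β f = 0 := by
  unfold domainExpect
  split_ifs with h
  · have key : ∀ σ : h.toFinset → Bool, ∀ z ∈ h.toFinset,
        extendConfig h.toFinset .free (fun u => !σ u) z = !extendConfig h.toFinset .free σ z := fun σ z hz => by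
      unfold extendConfig
      rw [dif_pos hz, dif_pos hz]
    have h0 : (∑ σ : h.toFinset → Bool, f (extendConfig h.toFinset .free σ) *
        Real.exp (-β * domainEnergy h.toFinset .free J lam R V (extendConfig h.toFinset .free σ))) =
        -∑ σ : h.toFinset → Bool, f (extendConfig h.toFinset .free σ) *
        Real.exp (-β * domainEnergy h.toFinset .free J lam R V (extendConfig h.toFinset .free σ)) := by
      rw [← Finset.sum_neg_distrib]
      refine (Fintype.sum_equiv (flipE _) _ _ fun σ => ?_).symm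
      show _ = f (extendConfig _ .free fun u => !σ u) *
        Real.exp (-β * domainEnergy _ .free J lam R V (extendConfig _ .free fun u => !σ u))
      rw [domainEnergy_free_congr hV _ J lam R _ _ (key σ),
        hf _ _ fun z hz => key σ z (h.mem_toFinset.2 hz)]
      ring
    have h1 : (∑ σ : h.toFinset → Bool, f (extendConfig h.toFinset .free σ) *
        Real.exp (-β * domainEnergy h.toFinset .free J lam R V (extendConfig h.toFinset .free σ))) = 0 := by
      linarith
    rw [h1, zero_div]
  · rfl

theorem domainMixedCorr_free_odd {V : Finset Site → ℝ} (hV : ∀ A, V A ≠ 0 → Even A.card) (D : Set ℂ) (a : ℝ)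
    (J lam : ℝ) (R : ℕ) (β : ℝ) {n m : ℕ} (hn : ¬ Even n) (x : Fin n → ℂ) (y : Fin m → ℂ) (j : Fin m → Fin 2)
    (hx : ∀ i, meshIndex a (x i) ∈ domainSites D a) (hy : ∀ k, meshIndex a (y k) ∈ domainSites D a)
    (hy' : ∀ k, meshIndex a (y k) + unitVec (j k) ∈ domainSites D a) :
    domainMixedCorr D a .free J lam R V β x y j = 0 := by
  unfold domainMixedCorr
  refine domainExpect_free_odd hV D a J lam R β _ fun s s' h => ?_
  simp only [h _ (hx _), h _ (hy _), h _ (hy' _)]
  rw [prod_spinSign_not Finset.univ fun i => s (meshIndex a (x i))]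
  simp only [spinSign_not, neg_mul_neg, Finset.card_univ, Fintype.card_fin]
  rw [(Nat.not_even_iff_odd.1 hn).neg_one_pow]
  ring

/-- for small mesh the lattice points near `x ∈ D` are sites of the open set `D` -/
theorem eventually_mesh_mem {D : Set ℂ} (hD : IsOpen D) {x : ℂ} (hx : x ∈ D) (v : Site) :
    ∀ᶠ a in 𝓝[>] (0 : ℝ), meshIndex a x + v ∈ domainSites D a := by
  have fl : ∀ (t : ℝ) (c : ℤ), Tendsto (fun a : ℝ => a * ((⌊t / a⌋ + c : ℤ) : ℝ)) (𝓝[>] 0) (𝓝 t) := fun t c => by
    have h1 : Tendsto (fun a : ℝ => t + a * (c - 1)) (𝓝[>] 0) (𝓝 t) := by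
      have : Tendsto (fun a : ℝ => t + a * (c - 1)) (𝓝 0) (𝓝 (t + 0 * (c - 1))) :=
        Continuous.tendsto (by fun_prop) 0
      simpa using this.mono_left nhdsWithin_le_nhds
    have h2 : Tendsto (fun a : ℝ => t + a * c) (𝓝[>] 0) (𝓝 t) := by
      have : Tendsto (fun a : ℝ => t + a * c) (𝓝 0) (𝓝 (t + 0 * c)) :=
        Continuous.tendsto (by fun_prop) 0
      simpa using this.mono_left nhdsWithin_le_nhds
    refine tendsto_of_tendsto_of_tendsto_of_le_of_le' h1 h2 ?_ ?_
    · filter_upwards [self_mem_nhdsWithin] with a ha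
      have ha' : (0 : ℝ) < a := ha
      have := Int.lt_floor_add_one (t / a)
      rw [div_lt_iff₀ ha'] at this
      push_cast
      nlinarith
    · filter_upwards [self_mem_nhdsWithin] with a ha
      have ha' : (0 : ℝ) < a := ha
      have := Int.floor_le (t / a)
      rw [le_div_iff₀ ha'] at this
      push_cast
      nlinarith
  have h : Tendsto (fun a : ℝ => meshPoint a (meshIndex a x + v)) (𝓝[>] 0) (𝓝 x) := by
    have e : ∀ a : ℝ, meshPoint a (meshIndex a x + v) =
        Complex.equivRealProdCLM.symm (a * ((⌊x.re / a⌋ + v.1 : ℤ) : ℝ), a * ((⌊x.im / a⌋ + v.2 : ℤ) : ℝ)) :=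
      fun a => rfl
    simp only [e]
    have := (Complex.equivRealProdCLM.symm.continuous.tendsto (x.re, x.im)).comp
      ((fl x.re v.1).prodMk_nhds (fl x.im v.2))
    exact this
  exact h.eventually (hD.mem_nhds hx)

theorem eventually_free_odd {V : Finset Site → ℝ} (hV : ∀ A, V A ≠ 0 → Even A.card) {D : Set ℂ} (hD : IsOpen D)
    (J : ℝ) (R : ℕ) {n m : ℕ} (hn : ¬ Even n) (x : Fin n → ℂ) (y : Fin m → ℂ) (j : Fin m → Fin 2)
    (hx : ∀ i, x i ∈ D) (hy : ∀ k, y k ∈ D) :
    ∀ᶠ a in 𝓝[>] (0 : ℝ), ∀ lam β : ℝ, domainMixedCorr D a .free J lam R V β x y j = 0 := by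
  have h1 := eventually_all.2 fun i => eventually_mesh_mem hD (hx i) 0
  have h2 := eventually_all.2 fun k => eventually_mesh_mem hD (hy k) 0
  have h3 := eventually_all.2 fun k => eventually_mesh_mem hD (hy k) (unitVec (j k))
  filter_upwards [h1, h2, h3] with a a1 a2 a3 lam β
  exact domainMixedCorr_free_odd hV D a J lam R β hn x y j (fun i => by simpa using a1 i)
    (fun k => by simpa using a2 k) a3

end Crest.Agent.R165
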