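import Mathlib

/-! # R165 block Glue: elementary limit lemmas -/

set_option autoImplicit false
noncomputable section
open Classical Filter Topology

namespace Crest.Agent.R165

theorem glue_eventually {a₀ : ℝ} (h : 0 < a₀) : ∀ᶠ a in 𝓝[>] (0 : ℝ), 0 < a ∧ a < a₀ := by
  filter_upwards [Ioo_mem_nhdsGT h] with a ha using ha

theorem glue_scale {a : ℝ} (ha : 0 < a) (n m : ℕ) :
    a ^ (-((n : ℝ) / 8 + m)) * a ^ m = a ^ (-((n : ℝ) / 8 + (0 : ℕ))) := by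
  rw [← Real.rpow_natCast, ← Real.rpow_add ha]
  congr 1
  push_cast
  ring

theorem glue_key {a ε Z A B B₀ : ℝ} (ha : 0 < a) (n m : ℕ) (h : |A - Z * B| ≤ ε * (|B| + a ^ m * |B₀|)) :
    |a ^ (-((n : ℝ) / 8 + m)) * A - Z * (a ^ (-((n : ℝ) / 8 + m)) * B)| ≤
      ε * (|a ^ (-((n : ℝ) / 8 + m)) * B| + |a ^ (-((n : ℝ) / 8 + (0 : ℕ))) * B₀|) := by
  have hp : 0 < a ^ (-((n : ℝ) / 8 + m)) := Real.rpow_pos_of_pos ha _
  have e : a ^ (-((n : ℝ) / 8 + m)) * A - Z * (a ^ (-((n : ℝ) / 8 + m)) * B) =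
      a ^ (-((n : ℝ) / 8 + m)) * (A - Z * B) := by ring
  rw [e, ← glue_scale ha n m, abs_mul, abs_mul, abs_mul, abs_mul, abs_of_pos hp, abs_of_pos (pow_pos ha m)]
  calc _ ≤ a ^ (-((n : ℝ) / 8 + m)) * (ε * (|B| + a ^ m * |B₀|)) := mul_le_mul_of_nonneg_left h hp.le
    _ = _ := by ring

/-- if for every `ε` eventually `|f - c| ≤ ε K`, then `f → c` -/
theorem glue_tendsto_of_eps {α : Type} {l : Filter α} {f : α → ℝ} {c K : ℝ}
    (h : ∀ ε, 0 < ε → ε ≤ 1 → ∀ᶠ a in l, |f a - c| ≤ ε * K) : Tendsto f l (𝓝 c) := by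
  rw [Metric.tendsto_nhds]
  intro δ hδ
  have hK : 0 < |K| + 1 := by positivity
  have h1 : 0 < min 1 (δ / (2 * (|K| + 1))) := lt_min one_pos (by positivity)
  filter_upwards [h _ h1 (min_le_left _ _)] with a ha
  rw [Real.dist_eq]
  have h2 : min 1 (δ / (2 * (|K| + 1))) * K ≤ δ / (2 * (|K| + 1)) * (|K| + 1) :=
    calc _ ≤ min 1 (δ / (2 * (|K| + 1))) * (|K| + 1) :=
          mul_le_mul_of_nonneg_left (by linarith [le_abs_self K]) h1.le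
      _ ≤ _ := mul_le_mul_of_nonneg_right (min_le_right _ _) hK.le
  have h3 : δ / (2 * (|K| + 1)) * (|K| + 1) = δ / 2 := by field_simp
  linarith

theorem glue_comb {ε Z A B B₀ F F₀ : ℝ} (hε : 0 < ε) (hε1 : ε ≤ 1) (h : |A - Z * B| ≤ ε * (|B| + |B₀|))
    (hB : |B - F| ≤ ε) (hB₀ : |B₀ - F₀| ≤ ε) : |A - Z * F| ≤ ε * (|F| + |F₀| + 2 + |Z|) := by
  have a1 : |B| ≤ |F| + 1 := by have := abs_sub_abs_le_abs_sub B F; linarith
  have a2 : |B₀| ≤ |F₀| + 1 := by have := abs_sub_abs_le_abs_sub B₀ F₀; linarith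
  have a3 : |Z * (B - F)| ≤ |Z| * ε := by rw [abs_mul]; exact mul_le_mul_of_nonneg_left hB (abs_nonneg _)
  have a4 : ε * (|B| + |B₀|) ≤ ε * (|F| + |F₀| + 2) := mul_le_mul_of_nonneg_left (by linarith) hε.le
  have e : A - Z * F = (A - Z * B) + Z * (B - F) := by ring
  rw [e]
  refine (abs_add_le _ _).trans ?_
  nlinarith

/-- bounded domains -/
theorem glue_lim_dom {A B B₀ : ℝ → ℝ} {Z F F₀ : ℝ} (n m : ℕ)
    (hB : Tendsto (fun a : ℝ => a ^ (-((n : ℝ) / 8 + m)) * B a) (𝓝[>] 0) (𝓝 F))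
    (hB₀ : Tendsto (fun a : ℝ => a ^ (-((n : ℝ) / 8 + (0 : ℕ))) * B₀ a) (𝓝[>] 0) (𝓝 F₀))
    (h : ∀ ε > 0, ∃ a₀ > 0, ∀ a, 0 < a → a < a₀ → |A a - Z * B a| ≤ ε * (|B a| + a ^ m * |B₀ a|)) :
    Tendsto (fun a : ℝ => a ^ (-((n : ℝ) / 8 + m)) * A a) (𝓝[>] 0) (𝓝 (Z * F)) := by
  refine glue_tendsto_of_eps (K := |F| + |F₀| + 2 + |Z|) fun ε hε hε1 => ?_
  obtain ⟨a₀, ha₀, H⟩ := h ε hε
  filter_upwards [glue_eventually ha₀, Metric.tendsto_nhds.1 hB ε hε, Metric.tendsto_nhds.1 hB₀ ε hε]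
    with a ha h1 h2
  rw [Real.dist_eq] at h1 h2
  exact glue_comb hε hε1 (glue_key ha.1 n m (H a ha.1 ha.2)) h1.le h2.le

/-- the plane as a limit of discs -/
theorem glue_lim_plane {A B B₀ : ℝ → ℝ → ℝ} {P : ℝ → ℝ} {Z F F₀ : ℝ} (n m : ℕ)
    (hP : ∀ a > 0, Tendsto (A a) atTop (𝓝 (P a)))
    (hB : ∀ ε > 0, ∃ a₀ > 0, ∃ K₀ : ℝ, ∀ a, 0 < a → a < a₀ → ∀ K, K₀ ≤ K →
      |a ^ (-((n : ℝ) / 8 + m)) * B a K - F| ≤ ε)
    (hB₀ : ∀ ε > 0, ∃ a₀ > 0, ∃ K₀ : ℝ, ∀ a, 0 < a → a < a₀ → ∀ K, K₀ ≤ K →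
      |a ^ (-((n : ℝ) / 8 + (0 : ℕ))) * B₀ a K - F₀| ≤ ε)
    (h : ∀ ε > 0, ∃ a₀ > 0, ∃ K₀ : ℝ, ∀ a, 0 < a → a < a₀ → ∀ K, K₀ ≤ K →
      |A a K - Z * B a K| ≤ ε * (|B a K| + a ^ m * |B₀ a K|)) :
    Tendsto (fun a : ℝ => a ^ (-((n : ℝ) / 8 + m)) * P a) (𝓝[>] 0) (𝓝 (Z * F)) := by
  refine glue_tendsto_of_eps (K := |F| + |F₀| + 2 + |Z|) fun ε hε hε1 => ?_
  obtain ⟨a₀, ha₀, K₀, H⟩ := h ε hε
  obtain ⟨a₁, ha₁, K₁, H₁⟩ := hB ε hε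
  obtain ⟨a₂, ha₂, K₂, H₂⟩ := hB₀ ε hε
  filter_upwards [glue_eventually ha₀, glue_eventually ha₁, glue_eventually ha₂] with a h0 h1 h2
  have t : Tendsto (fun K => |a ^ (-((n : ℝ) / 8 + m)) * A a K - Z * F|) atTop
      (𝓝 |a ^ (-((n : ℝ) / 8 + m)) * P a - Z * F|) :=
    (((hP a h0.1).const_mul _).sub_const _).abs
  refine le_of_tendsto t ?_
  filter_upwards [eventually_ge_atTop K₀, eventually_ge_atTop K₁, eventually_ge_atTop K₂] with K k0 k1 k2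
  exact glue_comb hε hε1 (glue_key h0.1 n m (H a h0.1 h0.2 K k0)) (H₁ a h1.1 h1.2 K k1) (H₂ a h2.1 h2.2 K k2)

theorem glue_cont {f : ℝ → ℝ} {c C lam₀ : ℝ} (h0 : 0 < lam₀) (h : ∀ lam, |lam| < lam₀ → |f lam - c| ≤ C * |lam|) :
    ContinuousAt f 0 ∧ f 0 = c := by
  have e : f 0 = c := by
    have := h 0 (by simpa using h0)
    simp only [abs_zero, mul_zero] at this
    exact sub_eq_zero.1 (abs_nonpos_iff.1 this)
  refine ⟨?_, e⟩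
  rw [ContinuousAt, e]
  refine glue_tendsto_of_eps (K := |C|) fun ε hε _ => ?_
  have h1 : ∀ᶠ lam in 𝓝 (0 : ℝ), |lam| < min lam₀ ε := by
    have := Metric.ball_mem_nhds (0 : ℝ) (lt_min h0 hε)
    filter_upwards [this] with lam hl
    simpa using hl
  filter_upwards [h1] with lam hl
  refine (h lam (hl.trans_le (min_le_left _ _))).trans ?_
  calc C * |lam| ≤ |C| * |lam| := mul_le_mul_of_nonneg_right (le_abs_self C) (abs_nonneg _)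
    _ ≤ |C| * ε := mul_le_mul_of_nonneg_left (hl.trans_le (min_le_right _ _)).le (abs_nonneg _)
    _ = ε * |C| := mul_comm _ _

theorem glue_pos {f : ℝ → ℝ} (hf : ContinuousAt f 0) (h0 : 0 < f 0) : ∃ δ > 0, ∀ lam, |lam| < δ → 0 < f lam := by
  obtain ⟨δ, hδ, H⟩ := Metric.eventually_nhds_iff.1 (hf.eventually (lt_mem_nhds h0))
  exact ⟨δ, hδ, fun lam hl => H (by simpa using hl)⟩

theorem glue_inj_nil {α : Type} {n m : ℕ} {x : Fin n → α} {y : Fin m → α} (h : Function.Injective (Fin.append x y)) :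
    Function.Injective (Fin.append x (![] : Fin 0 → α)) :=
  Fin.append_injective_iff.2 ⟨(Fin.append_injective_iff.1 h).1, fun i => i.elim0, fun _ j => j.elim0⟩

theorem glue_inj_map {α : Type} {n m : ℕ} {x : Fin n → α} {y : Fin m → α} {D : Set α} {φ : α → α}
    (hφ : Set.InjOn φ D) (hx : ∀ i, x i ∈ D) (hy : ∀ k, y k ∈ D) (h : Function.Injective (Fin.append x y)) :
    Function.Injective (Fin.append (fun i => φ (x i)) fun k => φ (y k)) := by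
  obtain ⟨h1, h2, h3⟩ := Fin.append_injective_iff.1 h
  exact Fin.append_injective_iff.2 ⟨fun i i' e => h1 (hφ (hx i) (hx i') e), fun k k' e => h2 (hφ (hy k) (hy k') e),
    fun i k e => h3 i k (hφ (hx i) (hy k) e)⟩

theorem glue_nonempty {α : Type} {n m : ℕ} (h : 1 ≤ n + m) {x : Fin n → α} {y : Fin m → α} {D : Set α}
    (hx : ∀ i, x i ∈ D) (hy : ∀ k, y k ∈ D) : D.Nonempty := by
  rcases Nat.eq_zero_or_pos n with h0 | h0
  · exact ⟨y ⟨0, by omega⟩, hy _⟩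
  · exact ⟨x ⟨0, h0⟩, hx _⟩

end Crest.Agent.R165
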