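import Crest.Agent.R165.Glue.Flip

/-! # R165 block Glue: local even observables are functions of the contour; expansion of centred products -/

set_option autoImplicit false
noncomputable section
open Classical Filter Topology Crest.ProbabilityR.IsingModel

namespace Crest.Agent.R165

/-- `f` is a function of finitely many contour variables -/
def LocObs (f : (Site → Bool) → ℝ) : Prop :=
  ∃ (O : Cfg → ℝ) (E₀ : Finset Edge), DependsOn O ↑E₀ ∧ ∀ s, f s = O (nOf s)

theorem LocObs.const (c : ℝ) : LocObs fun _ => c := ⟨fun _ => c, ∅, fun _ _ _ => rfl, fun _ => rfl⟩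

theorem LocObs.congr {f g : (Site → Bool) → ℝ} (h : LocObs f) (e : ∀ s, g s = f s) : LocObs g := by
  obtain ⟨O, E₀, h1, h2⟩ := h
  exact ⟨O, E₀, h1, fun s => (e s).trans (h2 s)⟩

theorem LocObs.mul {f g : (Site → Bool) → ℝ} (hf : LocObs f) (hg : LocObs g) : LocObs fun s => f s * g s := by
  obtain ⟨O, E₀, h1, h2⟩ := hf
  obtain ⟨O', E₁, h3, h4⟩ := hg
  refine ⟨fun n => O n * O' n, E₀ ∪ E₁, fun n n' h => ?_, fun s => by simp only [h2, h4]⟩
  have a : O n = O n' := h1 fun e he => h e (by simp [Finset.mem_coe.1 he])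
  have b : O' n = O' n' := h3 fun e he => h e (by simp [Finset.mem_coe.1 he])
  simp only [a, b]

theorem LocObs.prod {ι : Type} (A : Finset ι) {f : ι → (Site → Bool) → ℝ} (hf : ∀ i ∈ A, LocObs (f i)) :
    LocObs fun s => ∏ i ∈ A, f i s := by
  induction A using Finset.induction_on with
  | empty => simpa using LocObs.const 1
  | insert i A hi ih =>
    simp only [Finset.prod_insert hi]
    exact (hf i (Finset.mem_insert_self _ _)).mul (ih fun k hk => hf k (Finset.mem_insert_of_mem hk))

/-- the relation "the product of the two spins is a local contour observable" -/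
def Pair (u v : Site) : Prop := LocObs fun s => spinSign (s u) * spinSign (s v)

theorem Pair.refl (u : Site) : Pair u u := (LocObs.const 1).congr fun _ => spinSign_mul_self _

theorem Pair.symm {u v : Site} (h : Pair u v) : Pair v u := LocObs.congr h fun _ => mul_comm _ _

theorem Pair.trans {u v w : Site} (h : Pair u v) (h' : Pair v w) : Pair u w :=
  (LocObs.mul h h').congr fun s => by
    have := spinSign_mul_self (s v)
    linear_combination (-(spinSign (s u) * spinSign (s w))) * this

theorem Pair.edge (e : Edge) : Pair (edgeB0 e) (edgeB1 e) := by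
  refine ⟨fun n => -spinSign (n e), {e}, fun n n' h => ?_, fun s => ?_⟩
  · simp only [h e (by simp)]
  · simp only [nOf]
    cases s (edgeB0 e) <;> cases s (edgeB1 e) <;> simp [spinSign]

theorem Pair.right (a b : ℤ) : Pair (a, b) (a + 1, b) := by
  have := Pair.edge ((a, b - 1), 1)
  simpa [edgeB0, edgeB1] using this

theorem Pair.up (a b : ℤ) : Pair (a, b) (a, b + 1) := by
  have := Pair.edge ((a - 1, b), 0)
  simpa [edgeB0, edgeB1] using this

theorem Pair.all (u v : Site) : Pair u v := by
  have h1 : ∀ a b : ℤ, Pair (0, b) (a, b) := fun a b => by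
    induction a using Int.induction_on with
    | zero => exact Pair.refl _
    | succ k ih => exact ih.trans (Pair.right _ _)
    | pred k ih =>
      have := Pair.right (-(k : ℤ) - 1) b
      rw [sub_add_cancel] at this
      exact ih.trans this.symm
  have h2 : ∀ b : ℤ, Pair (0, 0) (0, b) := fun b => by
    induction b using Int.induction_on with
    | zero => exact Pair.refl _
    | succ k ih => exact ih.trans (Pair.up _ _)
    | pred k ih =>
      have := Pair.up 0 (-(k : ℤ) - 1)
      rw [sub_add_cancel] at this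
      exact ih.trans this.symm
  have h3 : ∀ w : Site, Pair (0, 0) w := fun w => (h2 w.2).trans (h1 w.1 w.2)
  exact (h3 u).symm.trans (h3 v)

theorem locObs_spins {n : ℕ} (hn : Even n) (us : Fin n → Site) : LocObs fun s => ∏ i, spinSign (s (us i)) := by
  refine (LocObs.prod Finset.univ fun i _ => Pair.all (us i) 0).congr fun s => ?_
  rw [Finset.prod_mul_distrib, Finset.prod_const, Finset.card_univ, Fintype.card_fin]
  obtain ⟨k, rfl⟩ := hn
  rw [pow_add, ← mul_pow, spinSign_mul_self, one_pow, mul_one]

/-- bond variable -/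
def bondO (v : Site) (j : Fin 2) (s : Site → Bool) : ℝ := spinSign (s v) * spinSign (s (v + unitVec j))

/-- spins times a subset of the bond variables -/
def monoO {n m : ℕ} (us : Fin n → Site) (vs : Fin m → Site) (js : Fin m → Fin 2) (S : Finset (Fin m))
    (s : Site → Bool) : ℝ := (∏ i, spinSign (s (us i))) * ∏ k ∈ S, bondO (vs k) (js k) s

theorem locObs_bond (v : Site) (j : Fin 2) : LocObs (bondO v j) := Pair.all _ _

theorem locObs_mono {n m : ℕ} (hn : Even n) (us : Fin n → Site) (vs : Fin m → Site) (js : Fin m → Fin 2)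
    (S : Finset (Fin m)) : LocObs (monoO us vs js S) :=
  (locObs_spins hn us).mul (LocObs.prod S fun _ _ => locObs_bond _ _)

/-- the polynomial expressing a centred correlation through uncentred ones -/
def mixF {m : ℕ} (ω : Finset (Fin m) → ℝ) (c : Fin m → ℝ) : ℝ :=
  ∑ S ∈ (Finset.univ : Finset (Fin m)).powerset, (∏ k ∈ Finset.univ \ S, -c k) * ω S

theorem tendsto_mixF {α : Type} {l : Filter α} {m : ℕ} {ω : α → Finset (Fin m) → ℝ} {c : α → Fin m → ℝ}
    {ω₀ : Finset (Fin m) → ℝ} {c₀ : Fin m → ℝ} (hω : ∀ S, Tendsto (fun a => ω a S) l (𝓝 (ω₀ S)))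
    (hc : ∀ k, Tendsto (fun a => c a k) l (𝓝 (c₀ k))) :
    Tendsto (fun a => mixF (ω a) (c a)) l (𝓝 (mixF ω₀ c₀)) :=
  tendsto_finsetSum _ fun S _ => (tendsto_finsetProd _ fun k _ => (hc k).neg).mul (hω S)

theorem centred_expand {n m : ℕ} (us : Fin n → Site) (vs : Fin m → Site) (js : Fin m → Fin 2) (c : Fin m → ℝ)
    (s : Site → Bool) :
    (∏ i, spinSign (s (us i))) * ∏ k, (bondO (vs k) (js k) s - c k) =
      ∑ S ∈ (Finset.univ : Finset (Fin m)).powerset, (∏ k ∈ Finset.univ \ S, -c k) * monoO us vs js S s := by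
  simp only [sub_eq_add_neg]
  rw [Finset.prod_add, Finset.mul_sum]
  refine Finset.sum_congr rfl fun S _ => ?_
  unfold monoO
  ring

theorem torusExpect_sum (L : ℕ) [NeZero L] (J lam : ℝ) (R : ℕ) (V : Finset Site → ℝ) (β : ℝ) {ι : Type}
    (A : Finset ι) (c : ι → ℝ) (f : ι → TorusConfig L → ℝ) :
    torusExpect L J lam R V β (fun σ => ∑ i ∈ A, c i * f i σ) = ∑ i ∈ A, c i * torusExpect L J lam R V β (f i) := by
  unfold torusExpect
  simp only [Finset.sum_mul, ← mul_div_assoc, ← Finset.sum_div, Finset.mul_sum, mul_assoc]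
  rw [Finset.sum_comm]

theorem domainExpect_sum (D : Set ℂ) (a : ℝ) (b : BoundaryCondition) (J lam : ℝ) (R : ℕ)
    (V : Finset Site → ℝ) (β : ℝ) {ι : Type} (A : Finset ι) (c : ι → ℝ) (f : ι → (Site → Bool) → ℝ) :
    domainExpect D a b J lam R V β (fun s => ∑ i ∈ A, c i * f i s) =
      ∑ i ∈ A, c i * domainExpect D a b J lam R V β (f i) := by
  unfold domainExpect
  split_ifs with h
  · simp only [Finset.sum_mul, ← mul_div_assoc, ← Finset.sum_div, Finset.mul_sum, mul_assoc]
    rw [Finset.sum_comm]
  · simp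

theorem toTorus_add (L : ℕ) (u v : Site) : toTorus L (u + v) = toTorus L u + toTorus L v := by
  simp [toTorus]

theorem latticeMixedCorr_eq (L : ℕ) (J lam : ℝ) (R : ℕ) (V : Finset Site → ℝ) (β : ℝ) {n m : ℕ}
    (us : Fin n → Site) (vs : Fin m → Site) (js : Fin m → Fin 2) :
    latticeMixedCorr L J lam R V β us vs js =
      mixF (fun S => torusExpect (L + 1) J lam R V β fun σ => monoO us vs js S fun z => σ (toTorus (L + 1) z))
        fun k => torusExpect (L + 1) J lam R V β fun σ => bondO (vs k) (js k) fun z => σ (toTorus (L + 1) z) := by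
  unfold latticeMixedCorr torusMixedCorr mixF
  rw [← torusExpect_sum]
  congr 1
  funext σ
  rw [← centred_expand us vs js _ fun z => σ (toTorus (L + 1) z)]
  simp only [bondO, torusTwoPoint, toTorus_add]

theorem domainMixedCorr_eq (D : Set ℂ) (a : ℝ) (b : BoundaryCondition) (J lam : ℝ) (R : ℕ)
    (V : Finset Site → ℝ) (β : ℝ) {n m : ℕ} (x : Fin n → ℂ) (y : Fin m → ℂ) (j : Fin m → Fin 2) :
    domainMixedCorr D a b J lam R V β x y j =
      mixF (fun S => domainExpect D a b J lam R V β
          (monoO (fun i => meshIndex a (x i)) (fun k => meshIndex a (y k)) j S))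
        fun k => domainExpect D a b J lam R V β (bondO (meshIndex a (y k)) (j k)) := by
  unfold domainMixedCorr mixF
  rw [← domainExpect_sum]
  congr 1
  funext s
  rw [← centred_expand (fun i => meshIndex a (x i)) (fun k => meshIndex a (y k)) j _ s]
  rfl

end Crest.Agent.R165
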