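import Crest.Agent.R165.D.Main
import Crest.Agent.R165.T.Main
import Crest.Agent.R165.Glue.Loc
import Crest.Agent.R165.Glue.Lim

/-! # R165 block Glue: final assembly of S0250 from `U_main`, `C_main`, `nice_of_jordan` -/

set_option autoImplicit false
noncomputable section
open Classical Filter Topology Crest.ProbabilityR.IsingModel

namespace Crest.Agent.R165

/-- the torus and the large discs have the same limit (even number of spins) -/
theorem glue_plane {J lam β : ℝ} {R : ℕ} {V : Finset Site → ℝ}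
    (U3 : ∀ (O : Cfg → ℝ) (E₀ : Finset Edge), DependsOn O ↑E₀ → ∃ ω : ℝ,
      Tendsto (fun L : ℕ => torusExpect (L + 1) J lam R V β fun σ => O (nOf (liftT (L + 1) σ))) atTop (𝓝 ω) ∧
      ∀ a > 0, Tendsto (fun K : ℝ => domainExpect (Metric.ball 0 K) a .plus J lam R V β fun σ => O (nOf σ))
        atTop (𝓝 ω))
    {n m : ℕ} (hn : Even n) (us : Fin n → Site) (vs : Fin m → Site) (js : Fin m → Fin 2) :
    Tendsto (fun L : ℕ => latticeMixedCorr L J lam R V β us vs js) atTop (𝓝 (planeMixedCorr J lam R V β us vs js)) ∧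
    ∀ a > 0, ∀ (x : Fin n → ℂ) (y : Fin m → ℂ), us = (fun i => meshIndex a (x i)) → vs = (fun k => meshIndex a (y k)) →
      Tendsto (fun K : ℝ => domainMixedCorr (Metric.ball 0 K) a .plus J lam R V β x y js) atTop
        (𝓝 (planeMixedCorr J lam R V β us vs js)) := by
  have key : ∀ f, LocObs f → ∃ ω : ℝ,
      Tendsto (fun L : ℕ => torusExpect (L + 1) J lam R V β fun σ => f fun z => σ (toTorus (L + 1) z)) atTop (𝓝 ω) ∧
      ∀ a > 0, Tendsto (fun K : ℝ => domainExpect (Metric.ball 0 K) a .plus J lam R V β f) atTop (𝓝 ω) := by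
    rintro f ⟨O, E₀, h1, h2⟩
    obtain rfl : f = fun s => O (nOf s) := funext h2
    exact U3 O E₀ h1
  choose ω hω1 hω2 using fun S => key _ (locObs_mono hn us vs js S)
  choose c hc1 hc2 using fun k => key _ (locObs_bond (vs k) (js k))
  have t1 : Tendsto (fun L : ℕ => latticeMixedCorr L J lam R V β us vs js) atTop (𝓝 (mixF ω c)) := by
    simp only [latticeMixedCorr_eq]
    exact tendsto_mixF hω1 hc1
  have e : planeMixedCorr J lam R V β us vs js = mixF ω c := t1.limUnder_eq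
  rw [e]
  refine ⟨t1, fun a ha x y hx hy => ?_⟩
  subst hx hy
  simp only [domainMixedCorr_eq]
  exact tendsto_mixF (fun S => hω2 S a ha) fun k => hc2 k a ha

/-- the limit for all boundary conditions -/
def allF (F : Set ℂ → BoundaryCondition → (n m : ℕ) → (Fin n → ℂ) → (Fin m → ℂ) → ℝ) (D : Set ℂ) :
    BoundaryCondition → (n m : ℕ) → (Fin n → ℂ) → (Fin m → ℂ) → ℝ
  | .plus, n, m, x, y => F D .plus n m x y
  | .minus, n, m, x, y => (-1) ^ n * F D .plus n m x y
  | .free, n, m, x, y => if Even n then F D .free n m x y else 0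

theorem glue_main
    (J : ℝ) (hJ : 0 < J) (R : ℕ) (V : Finset (ℤ × ℤ) → ℝ)
    (hVeven : ∀ A, V A ≠ 0 → Even A.card)
    (hVrange : ∀ A, V A ≠ 0 → ∀ x ∈ A, ∀ y ∈ A, |x.1 - y.1| ≤ (R : ℤ) ∧ |x.2 - y.2| ≤ (R : ℤ))
    (hVtrans : ∀ A (z : ℤ × ℤ), V (A.image fun x => x + z) = V A)
    (hVrot : ∀ A, V (A.image rotate) = V A) (hVrefl : ∀ A, V (A.image reflect) = V A) :
    ∃ lam₀ : ℝ, 0 < lam₀ ∧ ∃ βc Zs Ze : ℝ → ℝ,
      ContinuousAt βc 0 ∧ ContinuousAt Zs 0 ∧ ContinuousAt Ze 0 ∧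
      βc 0 = criticalBeta J ∧ Zs 0 = 1 ∧ Ze 0 = 1 ∧
      (∀ lam : ℝ, |lam| < lam₀ → 0 < βc lam ∧ Zs lam ≠ 0 ∧ Ze lam ≠ 0) ∧
      (∀ D : Set ℂ, IsC2JordanDomain D → ∀ (b : BoundaryCondition) (n m : ℕ), 1 ≤ n + m →
        ∀ (x : Fin n → ℂ) (y : Fin m → ℂ) (j : Fin m → Fin 2),
          (∀ i, x i ∈ D) → (∀ k, y k ∈ D) → Function.Injective (Fin.append x y) →
          ∃ F : ℝ, ∀ lam : ℝ, |lam| < lam₀ →
            Filter.Tendsto
              (fun a : ℝ => a ^ (-((n : ℝ) / 8 + m)) * domainMixedCorr D a b J lam R V (βc lam) x y j)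
              (nhdsWithin 0 (Set.Ioi 0)) (nhds (Zs lam ^ n * Ze lam ^ m * F))) ∧
      (∀ lam : ℝ, |lam| < lam₀ → ∀ (n m : ℕ) (us : Fin n → ℤ × ℤ) (vs : Fin m → ℤ × ℤ)
          (js : Fin m → Fin 2),
        Filter.Tendsto (fun L : ℕ => latticeMixedCorr L J lam R V (βc lam) us vs js) Filter.atTop
          (nhds (planeMixedCorr J lam R V (βc lam) us vs js))) ∧
      (∀ (n m : ℕ), 1 ≤ n + m → ∀ (x : Fin n → ℂ) (y : Fin m → ℂ) (j : Fin m → Fin 2),
        Function.Injective (Fin.append x y) →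
        ∃ F : ℝ, ∀ lam : ℝ, |lam| < lam₀ →
          Filter.Tendsto
            (fun a : ℝ => a ^ (-((n : ℝ) / 8 + m)) *
              planeMixedCorr J lam R V (βc lam) (fun i => meshIndex a (x i))
                (fun k => meshIndex a (y k)) j)
            (nhdsWithin 0 (Set.Ioi 0)) (nhds (Zs lam ^ n * Ze lam ^ m * F))) ∧
      (∃ C₀ : ℝ, C₀ ≠ 0 ∧ ∀ x y : ℂ, x ≠ y → ∀ lam : ℝ, |lam| < lam₀ →
        Filter.Tendsto
          (fun a : ℝ => a ^ (-(1 : ℝ) / 4) *
            planeMixedCorr J lam R V (βc lam) ![meshIndex a x, meshIndex a y] ![] ![])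
          (nhdsWithin 0 (Set.Ioi 0))
          (nhds (Zs lam ^ 2 * C₀ * ‖x - y‖ ^ (-(1 : ℝ) / 4)))) ∧
      (∀ D D' : Set ℂ, IsC2JordanDomain D → IsC2JordanDomain D' → ∀ φ : ℂ → ℂ,
        DifferentiableOn ℂ φ D → Set.BijOn φ D D' →
        ∀ (b : BoundaryCondition) (n m : ℕ), 1 ≤ n + m →
        ∀ (x : Fin n → ℂ) (y : Fin m → ℂ) (j : Fin m → Fin 2),
          (∀ i, x i ∈ D) → (∀ k, y k ∈ D) → Function.Injective (Fin.append x y) →
          ∀ lam : ℝ, |lam| < lam₀ → ∃ F F' : ℝ,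
            Filter.Tendsto
              (fun a : ℝ => a ^ (-((n : ℝ) / 8 + m)) * domainMixedCorr D a b J lam R V (βc lam) x y j)
              (nhdsWithin 0 (Set.Ioi 0)) (nhds F) ∧
            Filter.Tendsto
              (fun a : ℝ => a ^ (-((n : ℝ) / 8 + m)) *
                domainMixedCorr D' a b J lam R V (βc lam) (fun i => φ (x i)) (fun k => φ (y k)) j)
              (nhdsWithin 0 (Set.Ioi 0)) (nhds F') ∧
            F = (∏ i, ‖deriv φ (x i)‖ ^ ((1 : ℝ) / 8)) * (∏ k, ‖deriv φ (y k)‖) * F') := by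
  have hV : PotOK R V := ⟨hVeven, hVrange, hVtrans, hVrot, hVrefl⟩
  obtain ⟨lam₁, hlam₁, βc, Zs, Ze, C, hC, U1, U2, U3⟩ := U_main hJ hV
  obtain ⟨F, C₀, hC₀, C1, C2, C3, C4⟩ := C_main hJ R V
  obtain ⟨cβ, eβ⟩ := glue_cont hlam₁ fun lam h => (hC lam h).1
  obtain ⟨cs, es⟩ := glue_cont hlam₁ fun lam h => (hC lam h).2.1
  obtain ⟨ce, ee⟩ := glue_cont hlam₁ fun lam h => (hC lam h).2.2
  have hβ₀ : 0 < criticalBeta J :=
    div_pos (Real.log_pos (by linarith [Real.sqrt_pos.2 (show (0 : ℝ) < 2 by norm_num)])) (by linarith)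
  obtain ⟨δ₁, hδ₁, p₁⟩ := glue_pos cβ (by rw [eβ]; exact hβ₀)
  obtain ⟨δ₂, hδ₂, p₂⟩ := glue_pos cs (by rw [es]; exact one_pos)
  obtain ⟨δ₃, hδ₃, p₃⟩ := glue_pos ce (by rw [ee]; exact one_pos)
  have hl : ∀ {lam : ℝ}, |lam| < min lam₁ (min δ₁ (min δ₂ δ₃)) → |lam| < lam₁ := fun h =>
    h.trans_le (min_le_left _ _)
  -- bounded domains, admissible boundary data
  have dom0 : ∀ D, Nice D → ∀ (b : BoundaryCondition) (n m : ℕ) (x : Fin n → ℂ) (y : Fin m → ℂ) (j : Fin m → Fin 2),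
      (b = .plus ∨ (b = .free ∧ Even n)) → (∀ i, x i ∈ D) → (∀ k, y k ∈ D) → Function.Injective (Fin.append x y) →
      ∀ lam, |lam| < lam₁ →
      Tendsto (fun a : ℝ => a ^ (-((n : ℝ) / 8 + m)) * domainMixedCorr D a b J lam R V (βc lam) x y j)
        (𝓝[>] 0) (𝓝 (Zs lam ^ n * Ze lam ^ m * F D b n m x y)) :=
    fun D hD b n m x y j hb hx hy hi lam h =>
      glue_lim_dom n m (C1 D hD b n m x y j hb hx hy hi)
        (C1 D hD b n 0 x ![] ![] hb hx (fun k => k.elim0) (glue_inj_nil hi)) (U1 D hD b n m x y j hb hx hy hi lam h)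
  -- bounded domains, all boundary conditions
  have dom : ∀ D, Nice D → ∀ (b : BoundaryCondition) (n m : ℕ) (x : Fin n → ℂ) (y : Fin m → ℂ) (j : Fin m → Fin 2),
      (∀ i, x i ∈ D) → (∀ k, y k ∈ D) → Function.Injective (Fin.append x y) →
      ∀ lam, |lam| < lam₁ →
      Tendsto (fun a : ℝ => a ^ (-((n : ℝ) / 8 + m)) * domainMixedCorr D a b J lam R V (βc lam) x y j)
        (𝓝[>] 0) (𝓝 (Zs lam ^ n * Ze lam ^ m * allF F D b n m x y)) := by
    intro D hD b n m x y j hx hy hi lam h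
    cases b with
    | plus => exact dom0 D hD .plus n m x y j (Or.inl rfl) hx hy hi lam h
    | minus =>
      have := (dom0 D hD .plus n m x y j (Or.inl rfl) hx hy hi lam h).const_mul ((-1) ^ n)
      simp only [domainMixedCorr_minus hVeven, allF]
      convert this using 2 <;> ring
    | free =>
      by_cases hn : Even n
      · simp only [allF, if_pos hn]
        exact dom0 D hD .free n m x y j (Or.inr ⟨rfl, hn⟩) hx hy hi lam h
      · simp only [allF, if_neg hn, mul_zero]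
        refine tendsto_const_nhds.congr' ?_
        filter_upwards [eventually_free_odd hVeven hD.isOpen J R hn x y j hx hy] with a ha
        rw [ha, mul_zero]
  -- the plane, even number of spins
  have pl : ∀ (n m : ℕ) (x : Fin n → ℂ) (y : Fin m → ℂ) (j : Fin m → Fin 2), Even n →
      Function.Injective (Fin.append x y) → ∀ lam, |lam| < lam₁ →
      Tendsto (fun a : ℝ => a ^ (-((n : ℝ) / 8 + m)) *
        planeMixedCorr J lam R V (βc lam) (fun i => meshIndex a (x i)) (fun k => meshIndex a (y k)) j)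
        (𝓝[>] 0) (𝓝 (Zs lam ^ n * Ze lam ^ m * F Set.univ .plus n m x y)) :=
    fun n m x y j hn hi lam h =>
      glue_lim_plane (A := fun a K => domainMixedCorr (Metric.ball 0 K) a .plus J lam R V (βc lam) x y j) n m
        (fun a ha => (glue_plane (U3 lam h) hn _ _ j).2 a ha x y rfl rfl) (C3 n m x y j hn hi)
        (C3 n 0 x ![] ![] hn (glue_inj_nil hi)) (U2 n m x y j hn hi lam h)
  refine ⟨min lam₁ (min δ₁ (min δ₂ δ₃)), lt_min hlam₁ (lt_min hδ₁ (lt_min hδ₂ hδ₃)), βc, Zs, Ze, cβ, cs, ce,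
    eβ, es, ee, fun lam h => ?_, fun D hD b n m hnm x y j hx hy hi => ?_, fun lam h n m us vs js => ?_,
    fun n m _ x y j hi => ?_, ⟨C₀, hC₀, fun x y hxy lam h => ?_⟩,
    fun D D' hD hD' φ hφ hb b n m hnm x y j hx hy hi lam h => ?_⟩
  · simp only [lt_min_iff] at h
    exact ⟨p₁ lam h.2.1, (p₂ lam h.2.2.1).ne', (p₃ lam h.2.2.2).ne'⟩
  · exact ⟨allF F D b n m x y, fun lam h =>
      dom D (nice_of_jordan hD (glue_nonempty hnm hx hy)) b n m x y j hx hy hi lam (hl h)⟩
  · by_cases hn : Even n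
    · exact (glue_plane (U3 lam (hl h)) hn us vs js).1
    · simp only [latticeMixedCorr_odd hVeven _ J lam R _ hn, planeMixedCorr_odd hVeven J lam R _ hn]
      exact tendsto_const_nhds
  · by_cases hn : Even n
    · exact ⟨_, fun lam h => pl n m x y j hn hi lam (hl h)⟩
    · refine ⟨0, fun lam _ => ?_⟩
      simp only [planeMixedCorr_odd hVeven J lam R _ hn, mul_zero]
      exact tendsto_const_nhds
  · have hi : Function.Injective (Fin.append ![x, y] (![] : Fin 0 → ℂ)) := by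
      refine Fin.append_injective_iff.2 ⟨fun i i' e => ?_, fun i => i.elim0, fun _ k => k.elim0⟩
      fin_cases i <;> fin_cases i'
      · rfl
      · exact absurd e hxy
      · exact absurd e.symm hxy
      · rfl
    have := pl 2 0 ![x, y] ![] ![] even_two hi lam (hl h)
    rw [C4 x y hxy, pow_zero, mul_one, ← mul_assoc] at this
    convert this using 3 with a
    · congr 1
      norm_num
    · congr 1
      · funext i
        fin_cases i <;> rfl
      · funext k
        exact k.elim0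
  · have hne := glue_nonempty hnm hx hy
    have N := nice_of_jordan hD hne
    have N' := nice_of_jordan hD' (hne.elim fun z hz => ⟨φ z, hb.mapsTo hz⟩)
    refine ⟨_, _, dom D N b n m x y j hx hy hi lam (hl h),
      dom D' N' b n m _ _ j (fun i => hb.mapsTo (hx i)) (fun k => hb.mapsTo (hy k))
        (glue_inj_map hb.injOn hx hy hi) lam (hl h), ?_⟩
    cases b with
    | plus =>
      simp only [allF]
      rw [C2 D D' N N' φ hφ hb .plus n m x y (Or.inl rfl) hx hy hi]
      ring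
    | minus =>
      simp only [allF]
      rw [C2 D D' N N' φ hφ hb .plus n m x y (Or.inl rfl) hx hy hi]
      ring
    | free =>
      by_cases hn : Even n
      · simp only [allF, if_pos hn]
        rw [C2 D D' N N' φ hφ hb .free n m x y (Or.inr ⟨rfl, hn⟩) hx hy hi]
        ring
      · simp only [allF, if_neg hn, mul_zero]

end Crest.Agent.R165
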